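import Mathlib

/-!
# P267 / ROUTE S, ROOT (helper188), topological part (Mathlib only)

`RootCov m T W`: over the open set `W` the relation `T q v` (`q : X`, `v` a vector) is a finite
covering of the form `v = ζ • g q`, `ζ ^ m = 1`, with local continuous nowhere zero sections `g`.

* `RootCov.exists_section`: a section along a continuous map from a simply connected space;
* `RootCov.exists_nhd`: a section over a closed set extends to a neighbourhood;
* `RootCov.exists_p1`: a section over the image of a two-chart sphere;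
* `RootCov.exists_chain`: closed set + finitely many spheres meeting the previous ones in at most
  one point.
-/

set_option linter.unusedVariables false
set_option linter.unusedSectionVars false

open Set Filter Topology

noncomputable section

namespace Vale.Agent.P267.H188

variable {X : Type*} [TopologicalSpace X]
variable {E : Type*} [NormedAddCommGroup E] [InnerProductSpace ℂ E]

/-- over `W`, the relation `T` is a covering with group `μ_m` -/
def RootCov (m : ℕ) (T : X → E → Prop) (W : Set X) : Prop :=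
  ∀ p ∈ W, ∃ (U : Set X) (g : X → E), IsOpen U ∧ p ∈ U ∧ ContinuousOn g U ∧
    (∀ q ∈ U, g q ≠ 0) ∧ ∀ q ∈ U, ∀ v, T q v ↔ ∃ ζ : ℂ, ζ ^ m = 1 ∧ v = ζ • g q

/-- the group of `m`-th roots of unity, as a set of complex numbers -/
abbrev Mu (m : ℕ) : Type := {ζ : ℂ // ζ ^ m = 1}

theorem finite_mu {m : ℕ} (hm : 0 < m) : Finite (Mu m) := by
  have h : {ζ : ℂ | ζ ^ m = 1}.Finite := by
    have := (Polynomial.nthRoots m (1 : ℂ)).toFinset.finite_toSet
    refine this.subset fun ζ hζ => ?_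
    simp only [Finset.mem_coe, Multiset.mem_toFinset]
    exact (Polynomial.mem_nthRoots hm).2 hζ
  exact h.to_subtype

theorem discrete_mu {m : ℕ} (hm : 0 < m) : DiscreteTopology (Mu m) := by
  have := finite_mu hm
  infer_instance

theorem mu_ne {m : ℕ} (hm : 0 < m) {ζ : ℂ} (h : ζ ^ m = 1) : ζ ≠ 0 := by
  rintro rfl
  rw [zero_pow hm.ne'] at h
  exact zero_ne_one h

theorem mu_norm {m : ℕ} (hm : 0 < m) {ζ : ℂ} (h : ζ ^ m = 1) : ‖ζ‖ = 1 := by
  have := congrArg norm h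
  rw [norm_pow, norm_one] at this
  exact (pow_eq_one_iff_of_nonneg (norm_nonneg _) hm.ne').1 this

/-- ratio of two vectors on a line -/
def rat (v w : E) : ℂ := inner ℂ w v / inner ℂ w w

theorem rat_smul {w : E} (hw : w ≠ 0) (c : ℂ) : rat (c • w) w = c := by
  unfold rat
  rw [inner_smul_right, mul_div_assoc, div_self (inner_self_ne_zero.2 hw), mul_one]

theorem continuousOn_rat {Y : Type*} [TopologicalSpace Y] {f g : Y → E} {S : Set Y}
    (hf : ContinuousOn f S) (hg : ContinuousOn g S) (h0 : ∀ y ∈ S, g y ≠ 0) :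
    ContinuousOn (fun y => rat (f y) (g y)) S :=
  (hg.inner hf).div (hg.inner hg) fun y hy => inner_self_ne_zero.2 (h0 y hy)

variable {m : ℕ} {T : X → E → Prop} {W : Set X}

theorem RootCov.exists_mem (h : RootCov m T W) {p : X} (hp : p ∈ W) : ∃ v, T p v := by
  obtain ⟨U, g, hU, hpU, hg, h0, hT⟩ := h p hp
  exact ⟨g p, (hT p hpU _).2 ⟨1, one_pow _, (one_smul _ _).symm⟩⟩

theorem RootCov.ne_zero (hm : 0 < m) (h : RootCov m T W) {p : X} (hp : p ∈ W) {v : E}
    (hv : T p v) : v ≠ 0 := by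
  obtain ⟨U, g, hU, hpU, hg, h0, hT⟩ := h p hp
  obtain ⟨ζ, hζ, rfl⟩ := (hT p hpU _).1 hv
  exact smul_ne_zero (mu_ne hm hζ) (h0 p hpU)

theorem RootCov.smul (h : RootCov m T W) {p : X} (hp : p ∈ W) {v : E}
    (hv : T p v) {ζ : ℂ} (hζ : ζ ^ m = 1) : T p (ζ • v) := by
  obtain ⟨U, g, hU, hpU, hg, h0, hT⟩ := h p hp
  obtain ⟨ξ, hξ, rfl⟩ := (hT p hpU _).1 hv
  exact (hT p hpU _).2 ⟨ζ * ξ, by rw [mul_pow, hζ, hξ, one_mul], by rw [mul_smul]⟩

/-- two roots at the same point differ by a root of unity -/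
theorem RootCov.exists_smul (hm : 0 < m) (h : RootCov m T W) {p : X} (hp : p ∈ W) {v w : E}
    (hv : T p v) (hw : T p w) : ∃ ζ : ℂ, ζ ^ m = 1 ∧ v = ζ • w := by
  obtain ⟨U, g, hU, hpU, hg, h0, hT⟩ := h p hp
  obtain ⟨ξ, hξ, rfl⟩ := (hT p hpU _).1 hv
  obtain ⟨η, hη, rfl⟩ := (hT p hpU _).1 hw
  refine ⟨ξ * η⁻¹, by rw [mul_pow, hξ, inv_pow, hη, inv_one, mul_one], ?_⟩
  rw [smul_smul, mul_assoc, inv_mul_cancel₀ (mu_ne hm hη), mul_one]

theorem RootCov.rat_mem (hm : 0 < m) (h : RootCov m T W) {p : X} (hp : p ∈ W) {v w : E}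
    (hv : T p v) (hw : T p w) : rat v w ^ m = 1 ∧ v = rat v w • w := by
  obtain ⟨ζ, hζ, rfl⟩ := h.exists_smul hm hp hv hw
  rw [rat_smul (h.ne_zero hm hp hw)]
  exact ⟨hζ, rfl⟩

/-- pull back by a continuous map -/
theorem RootCov.comp {A : Type*} [TopologicalSpace A] (h : RootCov m T W) {c : A → X}
    (hc : Continuous c) (hW : ∀ a, c a ∈ W) : RootCov m (fun a v => T (c a) v) univ := by
  intro a _
  obtain ⟨U, g, hU, hpU, hg, h0, hT⟩ := h (c a) (hW a)
  exact ⟨c ⁻¹' U, g ∘ c, hU.preimage hc, hpU, hg.comp hc.continuousOn fun x hx => hx,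
    fun q hq => h0 _ hq, fun q hq v => hT _ hq v⟩

/-- the total space -/
abbrev Tot {A : Type*} (T : A → E → Prop) : Type _ := {p : A × E // T p.1 p.2}

theorem RootCov.isCoveringMap {A : Type*} [TopologicalSpace A] {T : A → E → Prop} (hm : 0 < m)
    (h : RootCov m T univ) : IsCoveringMap (fun p : Tot T => p.1.1) := by
  intro a
  obtain ⟨U, g, hU, haU, hg, h0, hT⟩ := h a (mem_univ a)
  have := discrete_mu hm
  have hcont : Continuous fun p : Tot T => p.1.1 := continuous_fst.comp continuous_subtype_val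
  have hev : IsEvenlyCovered (fun p : Tot T => p.1.1) a (Mu m) := by
    refine ⟨inferInstance, U, haU, hU, hU.preimage hcont, ?_⟩
    have hr : ∀ p : (fun p : Tot T => p.1.1) ⁻¹' U, rat p.1.1.2 (g p.1.1.1) ^ m = 1 ∧
        p.1.1.2 = rat p.1.1.2 (g p.1.1.1) • g p.1.1.1 := by
      rintro ⟨⟨⟨a, v⟩, hv⟩, ha⟩
      obtain ⟨ζ, hζ, hv'⟩ := (hT a ha v).1 hv
      dsimp only
      rw [hv', rat_smul (h0 a ha)]
      exact ⟨hζ, rfl⟩
    refine ⟨{ toFun := fun p => (⟨p.1.1.1, p.2⟩, ⟨rat p.1.1.2 (g p.1.1.1), (hr p).1⟩)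
              invFun := fun p => ⟨⟨(p.1.1, p.2.1 • g p.1.1),
                (hT _ p.1.2 _).2 ⟨p.2.1, p.2.2, rfl⟩⟩, p.1.2⟩
              left_inv := ?_
              right_inv := ?_
              continuous_toFun := ?_
              continuous_invFun := ?_ }, fun x => rfl⟩
    · intro p
      apply Subtype.ext
      apply Subtype.ext
      exact Prod.ext rfl (hr p).2.symm
    · rintro ⟨⟨a, ha⟩, ⟨ζ, hζ⟩⟩
      refine Prod.ext rfl (Subtype.ext ?_)
      exact rat_smul (h0 a ha) ζ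
    · refine Continuous.prodMk ?_ ?_
      · exact Continuous.subtype_mk (continuous_fst.comp
          (continuous_subtype_val.comp continuous_subtype_val)) _
      · refine Continuous.subtype_mk ?_ _
        have h1 : Continuous fun p : (fun p : Tot T => p.1.1) ⁻¹' U => p.1.1.2 :=
          continuous_snd.comp (continuous_subtype_val.comp continuous_subtype_val)
        have h2 : Continuous fun p : (fun p : Tot T => p.1.1) ⁻¹' U => g p.1.1.1 :=
          hg.comp_continuous (continuous_fst.comp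
            (continuous_subtype_val.comp continuous_subtype_val)) fun p => p.2
        exact (h2.inner h1).div (h2.inner h2) fun p => inner_self_ne_zero.2 (h0 _ p.2)
    · refine Continuous.subtype_mk (Continuous.subtype_mk ?_ _) _
      have h1 : Continuous fun p : U × Mu m => (p.1.1 : A) :=
        continuous_subtype_val.comp continuous_fst
      have h2 : Continuous fun p : U × Mu m => g p.1.1 := hg.comp_continuous h1 fun p => p.1.2
      exact h1.prodMk ((continuous_subtype_val.comp continuous_snd).smul h2)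
  exact hev.to_isEvenlyCovered_preimage

/-- a section along a continuous map from a simply connected space -/
theorem RootCov.exists_section {A : Type*} [TopologicalSpace A] [SimplyConnectedSpace A]
    [LocallyPathConnectedSpace A] (hm : 0 < m) (h : RootCov m T W) {c : A → X}
    (hc : Continuous c) (hW : ∀ a, c a ∈ W) : ∃ s : A → E, Continuous s ∧ ∀ a, T (c a) (s a) := by
  have h' := h.comp hc hW
  have hcov := h'.isCoveringMap hm
  obtain ⟨a₀⟩ : Nonempty A := inferInstance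
  obtain ⟨v₀, hv₀⟩ := h.exists_mem (hW a₀)
  obtain ⟨F, ⟨hF0, hF⟩, -⟩ := hcov.existsUnique_continuousMap_lifts (ContinuousMap.id A) a₀
    ⟨(a₀, v₀), hv₀⟩ rfl
  refine ⟨fun a => (F a).1.2, continuous_snd.comp (continuous_subtype_val.comp F.continuous),
    fun a => ?_⟩
  have h1 : (F a).1.1 = a := congrFun hF a
  have h2 := (F a).2
  rw [h1] at h2
  exact h2

/-! ### separation of the roots -/

theorem exists_sep {m : ℕ} (hm : 0 < m) :
    ∃ δ : ℝ, 0 < δ ∧ ∀ ζ ξ : ℂ, ζ ^ m = 1 → ξ ^ m = 1 → ‖ζ - ξ‖ < δ → ζ = ξ := by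
  have := finite_mu hm
  have hfin : (Set.range fun p : Mu m × Mu m => p.1.1 - p.2.1).Finite := Set.finite_range _
  have hcl : IsClosed ((Set.range fun p : Mu m × Mu m => p.1.1 - p.2.1) \ {0}) :=
    (hfin.subset sdiff_subset).isClosed
  have h0 : (0 : ℂ) ∉ (Set.range fun p : Mu m × Mu m => p.1.1 - p.2.1) \ {0} := fun h => h.2 rfl
  obtain ⟨δ, hδ, hb⟩ := Metric.isOpen_iff.1 hcl.isOpen_compl 0 h0
  refine ⟨δ, hδ, fun ζ ξ hζ hξ hd => ?_⟩
  by_contra hne
  refine hb (show ζ - ξ ∈ Metric.ball (0 : ℂ) δ by simpa using hd) ⟨⟨(⟨ζ, hζ⟩, ⟨ξ, hξ⟩), rfl⟩, ?_⟩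
  exact fun h => hne (sub_eq_zero.1 h)

/-- A section over a closed set extends to a neighbourhood. -/
theorem RootCov.exists_nhd [NormalSpace X] [FiniteDimensional ℂ E] (hm : 0 < m)
    (h : RootCov m T W) (hW : IsOpen W) {Y : Set X} (hY : IsClosed Y) (hYW : Y ⊆ W) {s : X → E}
    (hs : ContinuousOn s Y) (hsT : ∀ q ∈ Y, T q (s q)) :
    ∃ (N : Set X) (l : X → E), IsOpen N ∧ Y ⊆ N ∧ N ⊆ W ∧ ContinuousOn l N ∧
      (∀ q ∈ N, T q (l q)) ∧ ∀ q ∈ Y, l q = s q := by
  classical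
  obtain ⟨δ, hδ, hsep⟩ := exists_sep hm
  obtain ⟨F, hF⟩ := ContinuousMap.exists_restrict_eq hY
    (⟨Y.domRestrict s, continuousOn_iff_continuous_domRestrict.1 hs⟩ : C(Y, E))
  have hFY : ∀ q ∈ Y, F q = s q := fun q hq => by
    exact congrArg (fun f : C(Y, E) => f ⟨q, hq⟩) hF
  -- the neighbourhood
  set N : Set X := {q | q ∈ W ∧ ∃ v, T q v ∧ ‖F q - v‖ < δ / 2 * ‖v‖} with hN
  have huniq : ∀ q ∈ W, ∀ v w, T q v → T q w → ‖F q - v‖ < δ / 2 * ‖v‖ →
      ‖F q - w‖ < δ / 2 * ‖w‖ → v = w := by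
    intro q hq v w hv hw h1 h2
    obtain ⟨U, g, hU, hqU, hg, h0, hT⟩ := h q hq
    obtain ⟨ζ, hζ, rfl⟩ := (hT q hqU v).1 hv
    obtain ⟨ξ, hξ, rfl⟩ := (hT q hqU w).1 hw
    rw [norm_smul, mu_norm hm hζ, one_mul] at h1
    rw [norm_smul, mu_norm hm hξ, one_mul] at h2
    have h3 : ‖ζ - ξ‖ * ‖g q‖ < δ * ‖g q‖ := by
      rw [← norm_smul, sub_smul]
      calc ‖ζ • g q - ξ • g q‖ = ‖(F q - ξ • g q) - (F q - ζ • g q)‖ := by congr 1; abel
        _ ≤ ‖F q - ξ • g q‖ + ‖F q - ζ • g q‖ := norm_sub_le _ _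
        _ < δ * ‖g q‖ := by linarith
    have h4 : ‖ζ - ξ‖ < δ := lt_of_mul_lt_mul_right h3 (norm_nonneg _)
    rw [hsep ζ ξ hζ hξ h4]
  set l : X → E := fun q => if hq : ∃ v, T q v ∧ ‖F q - v‖ < δ / 2 * ‖v‖ then hq.choose else 0
    with hl
  have hlN : ∀ q ∈ N, T q (l q) ∧ ‖F q - l q‖ < δ / 2 * ‖l q‖ := by
    intro q hq
    have : l q = hq.2.choose := by rw [hl]; exact dif_pos hq.2
    rw [this]
    exact hq.2.choose_spec
  have hloc : ∀ q ∈ N, ∃ (U : Set X) (g : X → E) (ζ : ℂ), IsOpen U ∧ q ∈ U ∧ U ⊆ N ∧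
      ContinuousOn g U ∧ ∀ y ∈ U, l y = ζ • g y := by
    intro q hq
    obtain ⟨U, g, hU, hqU, hg, h0, hT⟩ := h q hq.1
    obtain ⟨ζ, hζ, hlq⟩ := (hT q hqU _).1 (hlN q hq).1
    have hc1 : ContinuousOn (fun y => ‖F y - ζ • g y‖ - δ / 2 * ‖ζ • g y‖) U :=
      ((F.continuous.continuousOn.sub (hg.const_smul ζ)).norm).sub
        (continuousOn_const.mul (hg.const_smul ζ).norm)
    have hopen : IsOpen (U ∩ (fun y => ‖F y - ζ • g y‖ - δ / 2 * ‖ζ • g y‖) ⁻¹' Iio 0) :=
      hc1.isOpen_inter_preimage hU isOpen_Iio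
    refine ⟨W ∩ (U ∩ (fun y => ‖F y - ζ • g y‖ - δ / 2 * ‖ζ • g y‖) ⁻¹' Iio 0), g, ζ,
      hW.inter hopen, ⟨hq.1, hqU, ?_⟩, ?_, hg.mono fun y hy => hy.2.1, ?_⟩
    · have := (hlN q hq).2
      rw [hlq] at this
      simpa using this
    · rintro y ⟨hyW, hyU, hy⟩
      exact ⟨hyW, ζ • g y, (hT y hyU _).2 ⟨ζ, hζ, rfl⟩, by simpa using hy⟩
    · rintro y ⟨hyW, hyU, hy⟩
      have hyN : y ∈ N := ⟨hyW, ζ • g y, (hT y hyU _).2 ⟨ζ, hζ, rfl⟩, by simpa using hy⟩
      exact huniq y hyW _ _ (hlN y hyN).1 ((hT y hyU _).2 ⟨ζ, hζ, rfl⟩) (hlN y hyN).2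
        (by simpa using hy)
  have hNo : IsOpen N := by
    rw [isOpen_iff_mem_nhds]
    intro q hq
    obtain ⟨U, g, ζ, hU, hqU, hUN, -, -⟩ := hloc q hq
    exact mem_of_superset (hU.mem_nhds hqU) hUN
  have hYN : Y ⊆ N := by
    intro q hq
    refine ⟨hYW hq, s q, hsT q hq, ?_⟩
    rw [hFY q hq, sub_self, norm_zero]
    have := norm_pos_iff.2 (h.ne_zero hm (hYW hq) (hsT q hq))
    positivity
  refine ⟨N, l, hNo, hYN, fun q hq => hq.1, ?_, fun q hq => (hlN q hq).1, ?_⟩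
  · intro q hq
    obtain ⟨U, g, ζ, hU, hqU, hUN, hg, hlU⟩ := hloc q hq
    have h1 : ContinuousAt (fun y => ζ • g y) q :=
      ((hg.const_smul ζ).continuousAt (hU.mem_nhds hqU))
    refine (h1.congr ?_).continuousWithinAt
    filter_upwards [hU.mem_nhds hqU] with y hy using (hlU y hy).symm
  · intro q hq
    refine huniq q (hYW hq) _ _ (hlN q (hYN hq)).1 (hsT q hq) (hlN q (hYN hq)).2 ?_
    rw [hFY q hq, sub_self, norm_zero]
    have := norm_pos_iff.2 (h.ne_zero hm (hYW hq) (hsT q hq))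
    positivity

/-! ### spheres -/

/-- the ratio of two continuous sections over a preconnected space is constant -/
theorem RootCov.exists_const {A : Type*} [TopologicalSpace A] {S : Set A} (hS : IsPreconnected S)
    (hm : 0 < m) (h : RootCov m T W) {c : A → X} (hW : ∀ a ∈ S, c a ∈ W) {s t : A → E}
    (hs : ContinuousOn s S) (ht : ContinuousOn t S) (hsT : ∀ a ∈ S, T (c a) (s a))
    (htT : ∀ a ∈ S, T (c a) (t a)) : ∃ ζ : ℂ, ζ ^ m = 1 ∧ ∀ a ∈ S, s a = ζ • t a := by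
  have hr := fun a (ha : a ∈ S) => h.rat_mem hm (hW a ha) (hsT a ha) (htT a ha)
  have hc : ContinuousOn (fun a => rat (s a) (t a)) S :=
    continuousOn_rat hs ht fun a ha => h.ne_zero hm (hW a ha) (htT a ha)
  have := discrete_mu hm
  rcases S.eq_empty_or_nonempty with rfl | ⟨a₀, ha₀⟩
  · exact ⟨1, one_pow _, fun a ha => ha.elim⟩
  refine ⟨rat (s a₀) (t a₀), (hr a₀ ha₀).1, fun a ha => ?_⟩
  have hS' : PreconnectedSpace S := isPreconnected_iff_preconnectedSpace.1 hS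
  have hc' : Continuous fun a : S => (⟨rat (s a.1) (t a.1), (hr a.1 a.2).1⟩ : Mu m) :=
    Continuous.subtype_mk (continuousOn_iff_continuous_domRestrict.1 hc) _
  have h1 := PreconnectedSpace.constant hS' hc' (x := ⟨a, ha⟩) (y := ⟨a₀, ha₀⟩)
  have h2 : rat (s a) (t a) = rat (s a₀) (t a₀) := congrArg Subtype.val h1
  rw [← h2]
  exact (hr a ha).2

theorem continuousOn_image {A : Type*} [TopologicalSpace A] [T2Space X] {f : A → X}
    (hf : Continuous f) {K : Set A} (hK : IsCompact K) {s : X → E} (hs : Continuous (s ∘ f)) :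
    ContinuousOn s (f '' K) := by
  rw [continuousOn_iff_isClosed]
  intro F hF
  refine ⟨f '' (K ∩ (s ∘ f) ⁻¹' F), ((hK.inter_right (hF.preimage hs)).image hf).isClosed, ?_⟩
  ext q
  constructor
  · rintro ⟨h1, z, hz, rfl⟩
    exact ⟨⟨z, ⟨hz, h1⟩, rfl⟩, z, hz, rfl⟩
  · rintro ⟨⟨z, ⟨hz, h1⟩, rfl⟩, h2⟩
    exact ⟨h1, h2⟩

/-- a section over the image of a sphere given by two charts -/
theorem RootCov.exists_p1 [T2Space X] (hm : 0 < m) (h : RootCov m T W) {f₀ f₁ : ℂ → X}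
    (h0 : Continuous f₀) (h1 : Continuous f₁) (hgl : ∀ z : ℂ, z ≠ 0 → f₀ z = f₁ z⁻¹)
    (hinj : Function.Injective f₀) (hinf : f₁ 0 ∉ range f₀) (h0W : ∀ z, f₀ z ∈ W)
    (h1W : ∀ z, f₁ z ∈ W) :
    IsCompact (range f₀ ∪ {f₁ 0}) ∧ ∃ s : X → E, ContinuousOn s (range f₀ ∪ {f₁ 0}) ∧
      ∀ q ∈ range f₀ ∪ {f₁ 0}, T q (s q) := by
  classical
  obtain ⟨s0, hs0, hT0⟩ := h.exists_section hm h0 h0W
  obtain ⟨s1, hs1, hT1⟩ := h.exists_section hm h1 h1W
  have hS : IsPreconnected ({0}ᶜ : Set ℂ) :=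
    (isConnected_compl_singleton_of_one_lt_rank (by simp) 0).isPreconnected
  obtain ⟨ζ, hζ, hst⟩ := h.exists_const (c := f₀) hS hm (fun a _ => h0W a) (s := s0)
    (t := fun z => s1 z⁻¹) hs0.continuousOn
    (hs1.comp_continuousOn (continuousOn_inv₀.mono fun z hz => hz)) (fun a _ => hT0 a)
    fun a ha => by rw [hgl a ha]; exact hT1 _
  set t1 : ℂ → E := fun w => ζ • s1 w with ht1
  have ht1c : Continuous t1 := hs1.const_smul ζ
  have ht1T : ∀ w, T (f₁ w) (t1 w) := fun w => h.smul (h1W w) (hT1 w) hζ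
  set s : X → E := fun q => if hq : ∃ z, f₀ z = q then s0 hq.choose else t1 0 with hsdef
  have hsf0 : ∀ z, s (f₀ z) = s0 z := by
    intro z
    have hq : ∃ w, f₀ w = f₀ z := ⟨z, rfl⟩
    have : s (f₀ z) = s0 hq.choose := by rw [hsdef]; exact dif_pos hq
    rw [this, hinj hq.choose_spec]
  have hsf1 : ∀ w, s (f₁ w) = t1 w := by
    intro w
    rcases eq_or_ne w 0 with rfl | hw
    · rw [hsdef]
      exact dif_neg fun ⟨z, hz⟩ => hinf ⟨z, hz⟩
    · have h2 : f₁ w = f₀ w⁻¹ := by rw [hgl w⁻¹ (inv_ne_zero hw), inv_inv]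
      rw [h2, hsf0, hst w⁻¹ (inv_ne_zero hw), inv_inv]
  have himg : range f₀ ∪ {f₁ 0} = f₀ '' Metric.closedBall 0 1 ∪ f₁ '' Metric.closedBall 0 1 := by
    ext q
    constructor
    · rintro (⟨z, rfl⟩ | rfl)
      · rcases le_total ‖z‖ 1 with hz | hz
        · exact Or.inl ⟨z, by simpa using hz, rfl⟩
        · have hz0 : z ≠ 0 := by
            rintro rfl
            simp at hz
            linarith
          refine Or.inr ⟨z⁻¹, ?_, (hgl z hz0).symm⟩
          rw [mem_closedBall_zero_iff, norm_inv]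
          exact inv_le_one_of_one_le₀ hz
      · exact Or.inr ⟨0, by simp, rfl⟩
    · rintro (⟨z, -, rfl⟩ | ⟨w, -, rfl⟩)
      · exact Or.inl ⟨z, rfl⟩
      · rcases eq_or_ne w 0 with rfl | hw
        · exact Or.inr rfl
        · exact Or.inl ⟨w⁻¹, by rw [hgl w⁻¹ (inv_ne_zero hw), inv_inv]⟩
  have hK0 : IsCompact (f₀ '' Metric.closedBall (0 : ℂ) 1) := (isCompact_closedBall _ _).image h0
  have hK1 : IsCompact (f₁ '' Metric.closedBall (0 : ℂ) 1) := (isCompact_closedBall _ _).image h1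
  refine ⟨himg ▸ hK0.union hK1, s, ?_, ?_⟩
  · rw [himg]
    have e0 : s ∘ f₀ = s0 := funext hsf0
    have e1 : s ∘ f₁ = t1 := funext hsf1
    exact (continuousOn_image h0 (isCompact_closedBall _ _) (by rw [e0]; exact hs0)).union_of_isClosed
      (continuousOn_image h1 (isCompact_closedBall _ _) (by rw [e1]; exact ht1c))
      hK0.isClosed hK1.isClosed
  · rintro q (⟨z, rfl⟩ | hq)
    · rw [hsf0]; exact hT0 z
    · rw [mem_singleton_iff] at hq
      rw [hq, hsf1]
      exact ht1T 0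

/-- gluing: a closed set and finitely many closed sets, each of which meets the previous ones in at
most one point -/
theorem RootCov.exists_chain (hm : 0 < m) (h : RootCov m T W) {Y : Set X} (hY : IsClosed Y)
    (hYW : Y ⊆ W) {s : X → E} (hs : ContinuousOn s Y) (hsT : ∀ q ∈ Y, T q (s q)) (K : ℕ → Set X)
    (n : ℕ) (hK : ∀ j < n, IsClosed (K j)) (hKW : ∀ j < n, K j ⊆ W)
    (hKs : ∀ j < n, ∃ t : X → E, ContinuousOn t (K j) ∧ ∀ q ∈ K j, T q (t q))
    (hint : ∀ j < n, (K j ∩ (Y ∪ ⋃ i < j, K i)).Subsingleton) :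
    ∃ t : X → E, ContinuousOn t (Y ∪ ⋃ i < n, K i) ∧ (∀ q ∈ Y ∪ ⋃ i < n, K i, T q (t q)) ∧
      ∀ q ∈ Y, t q = s q := by
  classical
  induction n with
  | zero => exact ⟨s, by simpa using hs, by simpa using hsT, fun q _ => rfl⟩
  | succ n ih =>
    obtain ⟨t, ht, htT, hts⟩ := ih (fun j hj => hK j (by omega)) (fun j hj => hKW j (by omega))
      (fun j hj => hKs j (by omega)) fun j hj => hint j (by omega)
    obtain ⟨u, hu, huT⟩ := hKs n (by omega)
    have hcl : IsClosed (Y ∪ ⋃ i < n, K i) :=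
      hY.union ((Set.finite_lt_nat n).isClosed_biUnion fun i hi => hK i (by
        have : i < n := hi
        omega))
    have hun : Y ∪ ⋃ i < n + 1, K i = (Y ∪ ⋃ i < n, K i) ∪ K n := by
      ext q
      simp only [mem_union, mem_iUnion, exists_prop]
      constructor
      · rintro (hq | ⟨i, hi, hq⟩)
        · exact Or.inl (Or.inl hq)
        · rcases Nat.lt_succ_iff_lt_or_eq.1 hi with hi | rfl
          · exact Or.inl (Or.inr ⟨i, hi, hq⟩)
          · exact Or.inr hq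
      · rintro ((hq | ⟨i, hi, hq⟩) | hq)
        · exact Or.inl hq
        · exact Or.inr ⟨i, by omega, hq⟩
        · exact Or.inr ⟨n, by omega, hq⟩
    -- adjust the constant
    obtain ⟨ζ, hζ, hag⟩ : ∃ ζ : ℂ, ζ ^ m = 1 ∧ ∀ q ∈ K n ∩ (Y ∪ ⋃ i < n, K i), t q = ζ • u q := by
      rcases (K n ∩ (Y ∪ ⋃ i < n, K i)).eq_empty_or_nonempty with he | ⟨p, hp⟩
      · exact ⟨1, one_pow _, fun q hq => by rw [he] at hq; exact hq.elim⟩
      · obtain ⟨ζ, hζ, he⟩ := h.exists_smul hm (hKW n (by omega) hp.1) (htT p hp.2) (huT p hp.1)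
        refine ⟨ζ, hζ, fun q hq => ?_⟩
        rw [hint n (by omega) hq hp]
        exact he
    refine ⟨fun q => if q ∈ Y ∪ ⋃ i < n, K i then t q else ζ • u q, ?_, ?_, ?_⟩
    · rw [hun]
      refine ContinuousOn.union_of_isClosed ?_ ?_ hcl (hK n (by omega))
      · exact ht.congr fun q hq => if_pos hq
      · refine (hu.const_smul ζ).congr fun q hq => ?_
        split_ifs with hq'
        · exact hag q ⟨hq, hq'⟩
        · rfl
    · intro q hq
      rw [hun] at hq
      dsimp only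
      split_ifs with hq'
      · exact htT q hq'
      · have hqK : q ∈ K n := hq.resolve_left hq'
        exact h.smul (hKW n (by omega) hqK) (huT q hqK) hζ
    · intro q hq
      have hq' : q ∈ Y ∪ ⋃ i < n, K i := Or.inl hq
      dsimp only
      rw [if_pos hq']
      exact hts q hq

end Vale.Agent.P267.H188
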